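import Vale.Agent.P097.H834.Unf.Root

/-!
# Unfolding, almost everywhere form (row UNF, with the local Privalov theorem)
-/

open Complex Filter Topology Set MeasureTheory
open Vale.Agent.P097.H877.Bd

namespace Vale.Agent.P097.H834.Unf

theorem cone_dist {k h x : ℝ} (hk : 0 < k) {z : ℂ} (hz : z ∈ cone k h x) :
    ‖z - x‖ ≤ (k + 1) * z.im := by
  have h1 := cone_im_pos hk hz
  have h2 := hz.1
  calc ‖z - x‖ ≤ |(z - x).re| + |(z - x).im| := norm_le_abs_re_add_abs_im _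
    _ ≤ k * z.im + z.im := by
      simp only [sub_re, ofReal_re, sub_im, ofReal_im, sub_zero]
      rw [abs_of_pos h1]
      linarith
    _ = (k + 1) * z.im := by ring

/-- small cones are the neighbourhoods of the vertex in a cone -/
theorem eventually_cone {k h x : ℝ} (hk : 0 < k) {p : ℂ → Prop} :
    (∀ᶠ z in 𝓝[cone k h x] (x : ℂ), p z) ↔ ∃ δ > 0, ∀ z ∈ cone k h x, z.im < δ → p z := by
  constructor
  · intro hp
    rw [eventually_nhdsWithin_iff, Metric.eventually_nhds_iff] at hp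
    obtain ⟨ε, hε, h1⟩ := hp
    refine ⟨ε / (k + 1), by positivity, fun z hz hz2 => h1 ?_ hz⟩
    rw [dist_eq_norm]
    rw [lt_div_iff₀ (by positivity)] at hz2
    linarith [cone_dist hk hz]
  · rintro ⟨δ, hδ, h1⟩
    rw [eventually_nhdsWithin_iff, Metric.eventually_nhds_iff]
    refine ⟨δ, hδ, fun z hz hz2 => h1 z hz2 ?_⟩
    rw [dist_eq_norm] at hz
    have h3 : |(z - x).im| ≤ ‖z - x‖ := abs_im_le_norm _
    simp only [sub_im, ofReal_im, sub_zero] at h3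
    rw [abs_of_pos (cone_im_pos hk hz2)] at h3
    linarith

theorem cone_inter {k h h' x : ℝ} : cone k h x ∩ cone k h' x = cone k (min h h') x := by
  ext z
  constructor
  · rintro ⟨⟨h1, h2⟩, _, h3⟩
    exact ⟨h1, lt_min h2 h3⟩
  · rintro ⟨h1, h2⟩
    exact ⟨⟨h1, h2.trans_le (min_le_left _ _)⟩, h1, h2.trans_le (min_le_right _ _)⟩

/-- the germ of a cone does not depend on the height -/
theorem nhdsWithin_cone {k h h' x : ℝ} (hk : 0 < k) (hh : 0 < h) (hh' : 0 < h') :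
    𝓝[cone k h x] (x : ℂ) = 𝓝[cone k h' x] (x : ℂ) := by
  have key : ∀ {h h' : ℝ}, 0 < h → 0 < h' → 𝓝[cone k h x] (x : ℂ) ≤ 𝓝[cone k h' x] (x : ℂ) := by
    intro h h' hh hh'
    rw [nhdsWithin_le_iff]
    have h1 : ∀ᶠ z in 𝓝[cone k h x] (x : ℂ), z ∈ cone k h' x := by
      rw [eventually_cone hk]
      exact ⟨h', hh', fun z hz hz2 => ⟨hz.1, hz2⟩⟩
    exact h1
  exact le_antisymm (key hh hh') (key hh' hh)

instance neBot_cone {k h x : ℝ} [Fact (0 < k)] [Fact (0 < h)] :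
    (𝓝[cone k h x] (x : ℂ)).NeBot := by
  have hk : 0 < k := Fact.out
  have hh : 0 < h := Fact.out
  rw [← mem_closure_iff_nhdsWithin_neBot, Metric.mem_closure_iff]
  intro ε hε
  obtain ⟨y, hy⟩ : ∃ y, y = min (h / 2) (ε / 2) := ⟨_, rfl⟩
  have hy0 : 0 < y := by rw [hy]; exact lt_min (by positivity) (by positivity)
  refine ⟨⟨x, y⟩, ⟨?_, ?_⟩, ?_⟩
  · simp only [sub_self, abs_zero]
    positivity
  · show y < h
    rw [hy]
    exact (min_le_left _ _).trans_lt (by linarith)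
  · rw [dist_comm, dist_eq_norm]
    have e1 : (⟨x, y⟩ : ℂ) - x = y * I := by
      apply Complex.ext <;> simp
    rw [e1, norm_mul, norm_real, norm_I, mul_one, Real.norm_eq_abs, abs_of_pos hy0, hy]
    exact (min_le_right _ _).trans_lt (by linarith)

/-- from `f² → c` to `f → √c` in a cone -/
theorem cone_root {k h x : ℝ} (hk : 0 < k) (hh : 0 < h) {f : ℂ → ℂ}
    (hf : ContinuousOn f (cone k h x)) {c : ℂ} (hc : c ≠ 0)
    (h2 : Tendsto (fun z => f z ^ 2) (𝓝[cone k h x] (x : ℂ)) (𝓝 c)) :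
    ∃ r : ℂ, r ≠ 0 ∧ Tendsto f (𝓝[cone k h x] (x : ℂ)) (𝓝 r) := by
  obtain ⟨r, hr⟩ := IsAlgClosed.exists_pow_nat_eq c two_pos
  have hr0 : r ≠ 0 := by
    intro h0
    rw [h0] at hr
    exact hc (by rw [← hr]; ring)
  have h3 : Tendsto (fun z => (f z / r) ^ 2) (𝓝[cone k h x] (x : ℂ)) (𝓝 1) := by
    have h4 := h2.div_const (r ^ 2)
    rw [hr, div_self hc] at h4
    refine h4.congr fun z => ?_
    rw [div_pow, hr]
  have h5 : ∀ᶠ z in 𝓝[cone k h x] (x : ℂ), ‖(f z / r) ^ 2 - 1‖ < 1 := by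
    have := (Metric.tendsto_nhds.mp h3) 1 one_pos
    simpa only [dist_eq_norm] using this
  rw [eventually_cone hk] at h5
  obtain ⟨δ, hδ, h6⟩ := h5
  obtain ⟨h', hh'⟩ : ∃ h', h' = min h δ := ⟨_, rfl⟩
  have hh'0 : 0 < h' := by rw [hh']; exact lt_min hh hδ
  have hsub : cone k h' x ⊆ cone k h x := by
    rw [hh']; exact cone_mono hk le_rfl (min_le_left _ _)
  have hre : ∀ z ∈ cone k h' x, (f z / r).re ≠ 0 := fun z hz =>
    re_ne_zero_of_sq (h6 z (hsub hz) (hz.2.trans_le (by rw [hh']; exact min_le_right _ _)))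
  have hcont : ContinuousOn (fun z => f z / r) (cone k h' x) := (hf.mono hsub).div_const r
  have hconn := (convex_cone k h' x).isPreconnected
  have fin : ∀ s : ℂ, s ^ 2 = 1 → (∀ z ∈ cone k h' x, 0 < (s * (f z / r)).re) →
      Tendsto f (𝓝[cone k h x] (x : ℂ)) (𝓝 (s * r)) := by
    intro s hs hpos
    have hs0 : s ≠ 0 := by
      intro h0
      rw [h0] at hs
      norm_num at hs
    have h7 : Tendsto (fun z => s * (f z / r)) (𝓝[cone k h x] (x : ℂ)) (𝓝 1) := by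
      rw [tendsto_iff_norm_sub_tendsto_zero] at h3 ⊢
      refine squeeze_zero' (Eventually.of_forall fun _ => norm_nonneg _) ?_ h3
      rw [eventually_cone hk]
      refine ⟨δ, hδ, fun z hz hz2 => ?_⟩
      have h8 := norm_sub_le_of_re (hpos z ⟨hz.1, by rw [hh']; exact lt_min hz.2 hz2⟩).le
      rw [mul_pow, hs, one_mul] at h8
      exact h8
    have h9 := h7.const_mul (s * r)
    rw [mul_one] at h9
    refine h9.congr fun z => ?_
    have : s * r * (s * (f z / r)) = s ^ 2 * f z := by field_simp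
    rw [this, hs, one_mul]
  by_cases hpos : ∃ z ∈ cone k h' x, 0 < (f z / r).re
  · obtain ⟨z, hz, hz0⟩ := hpos
    have := re_sign hconn hcont hre hz hz0
    exact ⟨1 * r, by rw [one_mul]; exact hr0, fin 1 (by norm_num) fun z hz => by
      rw [one_mul]; exact this z hz⟩
  · push Not at hpos
    refine ⟨-1 * r, by rw [neg_one_mul]; exact neg_ne_zero.mpr hr0, fin (-1) (by norm_num)
      fun z hz => ?_⟩
    have h8 := lt_of_le_of_ne (hpos z hz) (hre z hz)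
    rw [neg_one_mul, neg_re]
    linarith

/-- non-tangential limit (all apertures), in the form given by `fatloc` -/
def NT (D : Set ℂ) (f : ℂ → ℂ) (x : ℝ) (c : ℂ) : Prop :=
  ∀ k > 0, ∃ h > 0, cone k h x ⊆ D ∧ Tendsto f (𝓝[cone k h x] (x : ℂ)) (𝓝 c)

theorem NT.mono {D D' : Set ℂ} {f : ℂ → ℂ} {x : ℝ} {c : ℂ} (h : NT D f x c) (hD : D ⊆ D') :
    NT D' f x c := fun k hk => by
  obtain ⟨h, hh, h1, h2⟩ := h k hk
  exact ⟨h, hh, h1.trans hD, h2⟩

/-- a common height -/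
theorem NT.tendsto {D : Set ℂ} {f : ℂ → ℂ} {x : ℝ} {c : ℂ} (h : NT D f x c) {k δ : ℝ} (hk : 0 < k)
    (hδ : 0 < δ) : Tendsto f (𝓝[cone k δ x] (x : ℂ)) (𝓝 c) := by
  obtain ⟨h, hh, h1, h2⟩ := h k hk
  rwa [nhdsWithin_cone hk hδ hh]

theorem NT.unique {D : Set ℂ} {f : ℂ → ℂ} {x : ℝ} {c c' : ℂ} (h : NT D f x c)
    (h' : NT D f x c') : c = c' := by
  have : Fact ((0 : ℝ) < 1) := ⟨one_pos⟩
  exact tendsto_nhds_unique (h.tendsto one_pos one_pos) (h'.tendsto one_pos one_pos)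

/-- to build a limit of a combination: the cones in `D` come from one of the functions -/
theorem NT.of_tendsto {D : Set ℂ} {f g : ℂ → ℂ} {x : ℝ} {c c' : ℂ} (h : NT D f x c)
    (hg : ∀ k > 0, ∀ δ > 0, cone k δ x ⊆ D → Tendsto g (𝓝[cone k δ x] (x : ℂ)) (𝓝 c')) :
    NT D g x c' := fun k hk => by
  obtain ⟨δ, hδ, h1, _⟩ := h k hk
  exact ⟨δ, hδ, h1, hg k hk δ hδ h1⟩

/-- **Privalov, global form**: the n.t. limits of a holomorphic `f ≢ 0` are not `0`, a.e. -/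
theorem nt_ne_zero {D : Set ℂ} (hD : IsOpen D) (hDc : IsPreconnected D) {f : ℂ → ℂ}
    (hf : DifferentiableOn ℂ f D) (hne : ∃ z ∈ D, f z ≠ 0) :
    ∀ᵐ x : ℝ, ∀ c, NT D f x c → c ≠ 0 := by
  have h1 := privalov hf (E := {x | NT D f x 0}) (fun x hx => by
    obtain ⟨h, hh, h2, h3⟩ := hx 1 one_pos
    exact ⟨1, one_pos, h, hh, h2, h3⟩)
  filter_upwards [h1] with x hx c hc h0
  rw [h0] at hc
  obtain ⟨k, hk, h, hh, hsub, hz⟩ := hx hc
  obtain ⟨z, hzD, hz0⟩ := hne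
  apply hz0
  have hy : (⟨x, h / 2⟩ : ℂ) ∈ cone k h x := by
    refine ⟨?_, ?_⟩
    · simp only [sub_self, abs_zero]
      positivity
    · show h / 2 < h
      linarith
  exact (hf.analyticOnNhd hD).eqOn_zero_of_preconnected_of_eventuallyEq_zero hDc (hsub hy)
    (by filter_upwards [(isOpen_cone k h x).mem_nhds hy] with w hw using hz w hw) hzD

/-- a two-sided family of lines `(l i, p i)`, `i : ℤ`, and of mirrors `(E i, q i)` on `D`: the
mirror `i` reflects the line `i - 1` to the line `i` -/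
structure Bil (D : Set ℂ) (E q l p : ℤ → ℂ → ℂ) : Prop where
  hE : ∀ i, DifferentiableOn ℂ (E i) D
  hq : ∀ i, DifferentiableOn ℂ (q i) D
  hl : ∀ i, DifferentiableOn ℂ (l i) D
  hp : ∀ i, DifferentiableOn ℂ (p i) D
  law : ∀ z ∈ D, ∀ i, Law (E i z) (q i z) (l (i - 1) z) (p (i - 1) z) (l i z) (p i z)

/-- the line `i` has a (non isotropic, finite) n.t. limit at `x` -/
def LineNT (D : Set ℂ) (l p : ℂ → ℂ) (x : ℝ) : Prop :=
  ∃ l0 p0 : ℂ, l0 ≠ 0 ∧ NT D l x l0 ∧ NT D p x p0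

theorem Law.tendsto {X : Type*} {F : Filter X} {E q l p l' p' : X → ℂ} {e q0 l0 p0 : ℂ}
    (he : e ≠ 0) (hl0 : l0 ≠ 0) (hE : Tendsto E F (𝓝 e)) (hq : Tendsto q F (𝓝 q0))
    (hl : Tendsto l F (𝓝 l0)) (hp : Tendsto p F (𝓝 p0))
    (h : ∀ᶠ x in F, Law (E x) (q x) (l x) (p x) (l' x) (p' x)) :
    Tendsto l' F (𝓝 (e ^ 2 / l0)) ∧ Tendsto p' F (𝓝 (q0 * (l0 / e + e / l0) - p0)) := by
  refine ⟨?_, ?_⟩
  · exact ((((hE).pow 2).div hl hl0)).congr' (h.mono fun x hx => (hx.eq_l).symm)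
  · exact (((hq).mul ((hl.div (hE) (he)).add
        ((hE).div hl hl0))).sub hp).congr' (h.mono fun x hx => (hx.eq_p).symm)

/-- one reflection -/
theorem LineNT.refl {D : Set ℂ} {E q l p l' p' : ℂ → ℂ} {x : ℝ}
    (h : ∀ z ∈ D, Law (E z) (q z) (l z) (p z) (l' z) (p' z)) (hm : LineNT D E q x)
    (hl : LineNT D l p x) : LineNT D l' p' x := by
  obtain ⟨e, q0, he, h1, h2⟩ := hm
  obtain ⟨l0, p0, hl0, h3, h4⟩ := hl
  have key : ∀ k > 0, ∀ δ > 0, cone k δ x ⊆ D →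
      Tendsto l' (𝓝[cone k δ x] (x : ℂ)) (𝓝 (e ^ 2 / l0)) ∧
      Tendsto p' (𝓝[cone k δ x] (x : ℂ)) (𝓝 (q0 * (l0 / e + e / l0) - p0)) := by
    intro k hk δ hδ hsub
    refine Law.tendsto he hl0 (h1.tendsto hk hδ) (h2.tendsto hk hδ) (h3.tendsto hk hδ)
      (h4.tendsto hk hδ) ?_
    filter_upwards [self_mem_nhdsWithin] with z hz using h z (hsub hz)
  exact ⟨e ^ 2 / l0, _, div_ne_zero (pow_ne_zero 2 he) hl0,
    h1.of_tendsto fun k hk δ hδ hs => (key k hk δ hδ hs).1,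
    h1.of_tendsto fun k hk δ hδ hs => (key k hk δ hδ hs).2⟩

/-- **the lines converge together** (at one boundary point): if all the mirrors converge and one
line converges, then all the lines converge -/
theorem Bil.lines {D : Set ℂ} {E q l p : ℤ → ℂ → ℂ} (B : Bil D E q l p) {x : ℝ}
    (hm : ∀ i, LineNT D (E i) (q i) x) {j : ℤ} (hj : LineNT D (l j) (p j) x) :
    ∀ i, LineNT D (l i) (p i) x := by
  intro i
  refine Int.inductionOn' i j hj (fun k _ ih => ?_) (fun k _ ih => ?_)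
  · refine LineNT.refl (fun z hz => ?_) (hm (k + 1)) ih
    have := B.law z hz (k + 1)
    rwa [add_sub_cancel_right] at this
  · exact LineNT.refl (fun z hz => (B.law z hz k).symm) (hm k) ih

/-- **all vertices are finite**, almost everywhere: under the hypotheses of `Bil.lines` for
`x ∈ S`, and if `sin δ_i ≢ 0`, then `l_i*² ≠ E_i*²` and the impact point converges -/
theorem Bil.hits {D : Set ℂ} (hD : IsOpen D) (hDc : IsPreconnected D) {E q l p : ℤ → ℂ → ℂ}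
    (B : Bil D E q l p) (hne : ∀ i, ∃ z ∈ D, l i z ^ 2 ≠ E i z ^ 2) {S : Set ℝ}
    (hS : ∀ x ∈ S, (∀ i, LineNT D (E i) (q i) x) ∧ ∃ j, LineNT D (l j) (p j) x) :
    ∀ᵐ x : ℝ, x ∈ S → ∀ i, ∃ e q0 l0 p0 : ℂ, e ≠ 0 ∧ l0 ≠ 0 ∧ l0 ^ 2 ≠ e ^ 2 ∧
      NT D (E i) x e ∧ NT D (q i) x q0 ∧ NT D (l i) x l0 ∧ NT D (p i) x p0 ∧
      ∀ k > 0, ∀ h > 0, Tendsto (fun z => hit (E i z) (q i z) (l i z) (p i z))
        (𝓝[cone k h x] (x : ℂ)) (𝓝 (hit e q0 l0 p0)) := by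
  have h1 : ∀ i, ∀ᵐ x : ℝ, ∀ c, NT D (fun z => l i z ^ 2 - E i z ^ 2) x c → c ≠ 0 := by
    intro i
    refine nt_ne_zero hD hDc (((B.hl i).pow 2).sub ((B.hE i).pow 2)) ?_
    obtain ⟨z, hz, h2⟩ := hne i
    exact ⟨z, hz, sub_ne_zero.mpr h2⟩
  filter_upwards [ae_all_iff.mpr h1] with x hx hxS i
  obtain ⟨hm, j, hj⟩ := hS x hxS
  obtain ⟨e, q0, he, h2, h3⟩ := hm i
  obtain ⟨l0, p0, hl0, h4, h5⟩ := B.lines hm hj i
  have hd : l0 ^ 2 - e ^ 2 ≠ 0 := hx i _ (h4.of_tendsto fun k hk δ hδ _ =>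
    ((h4.tendsto hk hδ).pow 2).sub ((h2.tendsto hk hδ).pow 2))
  exact ⟨e, q0, l0, p0, he, hl0, sub_ne_zero.mp hd, h2, h3, h4, h5, fun k hk δ hδ =>
    tendsto_hit hd (h2.tendsto hk hδ) (h3.tendsto hk hδ) (h4.tendsto hk hδ) (h5.tendsto hk hδ)⟩

/-! ### the version with ends (no line is known to converge) -/

/-- all the data of a block of `n` mirrors on an open set `D`: mirrors `(E i, q i)`, `i < n`,
lines `(l i, p i)`, `i ≤ n`, the ends `OL` on the line `0` and `OR` on the line `n` -/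
structure Blk (D : Set ℂ) (n : ℕ) (E q l p : ℕ → ℂ → ℂ) (OL OR : ℂ → ℂ × ℂ) : Prop where
  hE : ∀ i < n, DifferentiableOn ℂ (E i) D
  hq : ∀ i < n, DifferentiableOn ℂ (q i) D
  hl : DifferentiableOn ℂ (l 0) D
  l0 : ∀ z ∈ D, l 0 z ≠ 0
  law : ∀ z ∈ D, ∀ i < n, Law (E i z) (q i z) (l i z) (p i z) (l (i + 1) z) (p (i + 1) z)
  hL : DifferentiableOn ℂ OL D
  hR : DifferentiableOn ℂ OR D
  oL : ∀ z ∈ D, OnL (l 0 z) (p 0 z) (OL z)
  oR : ∀ z ∈ D, OnL (l n z) (p n z) (OR z)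

/-- the vector `F = s_0 ⋯ s_{n-1} O_R - O_L` -/
noncomputable def Fv (n : ℕ) (E q : ℕ → ℂ → ℂ) (OL OR : ℂ → ℂ × ℂ) (z : ℂ) : ℂ × ℂ :=
  fold (fun i => E i z) (fun i => q i z) n (OR z) - OL z

theorem differentiableOn_fold {D : Set ℂ} {n : ℕ} {E q : ℕ → ℂ → ℂ} {O : ℂ → ℂ × ℂ}
    (hE : ∀ i < n, DifferentiableOn ℂ (E i) D) (hq : ∀ i < n, DifferentiableOn ℂ (q i) D)
    (hE0 : ∀ i < n, ∀ z ∈ D, E i z ≠ 0) (hO : DifferentiableOn ℂ O D) :
    DifferentiableOn ℂ (fun z => fold (fun i => E i z) (fun i => q i z) n (O z)) D := by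
  induction n generalizing O with
  | zero => exact hO
  | succ n ih =>
    simp only [fold_succ]
    refine ih (fun i hi => hE i (by omega)) (fun i hi => hq i (by omega))
      (fun i hi => hE0 i (by omega)) ?_
    have h1 := hE n (by omega)
    have h2 := hq n (by omega)
    have h3 : DifferentiableOn ℂ (fun z => (O z).1) D := hO.fst
    have h4 : DifferentiableOn ℂ (fun z => (O z).2) D := hO.snd
    have h5 : DifferentiableOn ℂ (fun z => 2 * I * q n z * E n z) D := (h2.const_mul _).mul h1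
    refine DifferentiableOn.prodMk (((h1.pow 2).mul h4).add h5) ?_
    exact (h3.sub h5).div (h1.pow 2) (fun z hz => pow_ne_zero 2 (hE0 n (by omega) z hz))

theorem Blk.hF {D : Set ℂ} {n : ℕ} {E q l p : ℕ → ℂ → ℂ} {OL OR : ℂ → ℂ × ℂ}
    (B : Blk D n E q l p OL OR) : DifferentiableOn ℂ (Fv n E q OL OR) D :=
  (differentiableOn_fold B.hE B.hq (fun i hi z hz => (B.law z hz i hi).E0) B.hR).sub B.hL

/-- **UNF** : the ends and the mirrors converge on `S`, and `F` does not vanish identically on a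
cone; then almost everywhere on `S` all the lines of the block converge -/
theorem Blk.lines {D : Set ℂ} {n : ℕ} {E q l p : ℕ → ℂ → ℂ} {OL OR : ℂ → ℂ × ℂ}
    (B : Blk D n E q l p OL OR) {S : Set ℝ}
    (hm : ∀ x ∈ S, ∀ i < n, LineNT D (E i) (q i) x)
    (hL : ∀ x ∈ S, ∃ o : ℂ × ℂ, ∀ k > 0, ∃ h > 0, cone k h x ⊆ D ∧
      Tendsto OL (𝓝[cone k h x] (x : ℂ)) (𝓝 o))
    (hR : ∀ x ∈ S, ∃ o : ℂ × ℂ, ∀ k > 0, ∃ h > 0, cone k h x ⊆ D ∧
      Tendsto OR (𝓝[cone k h x] (x : ℂ)) (𝓝 o))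
    (hF : ∀ x ∈ S, ∀ k > 0, ∀ h > 0, cone k h x ⊆ D → ∃ z ∈ cone k h x, Fv n E q OL OR z ≠ 0) :
    ∀ᵐ x : ℝ, x ∈ S → ∀ i ≤ n, LineNT D (l i) (p i) x := by
  classical
  have h1 := privalov (B.hF.fst) (E := {x | x ∈ S ∧ NT D (fun z => (Fv n E q OL OR z).1) x 0})
    (fun x hx => by
      obtain ⟨h, hh, h2, h3⟩ := hx.2 1 one_pos
      exact ⟨1, one_pos, h, hh, h2, h3⟩)
  have h2 := privalov (B.hF.snd) (E := {x | x ∈ S ∧ NT D (fun z => (Fv n E q OL OR z).2) x 0})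
    (fun x hx => by
      obtain ⟨h, hh, h2, h3⟩ := hx.2 1 one_pos
      exact ⟨1, one_pos, h, hh, h2, h3⟩)
  filter_upwards [h1, h2] with x hx1 hx2 hxS
  obtain ⟨oL, hoL⟩ := hL x hxS
  obtain ⟨oR, hoR⟩ := hR x hxS
  -- the identity `F₊ = l₀² F₋` on `D`
  have hid : ∀ z ∈ D, (Fv n E q OL OR z).1 = l 0 z ^ 2 * (Fv n E q OL OR z).2 := fun z hz =>
    fold_sub (B.law z hz) (B.oL z hz) (B.oR z hz)
  -- limits of the mirrors
  have hm' := hm x hxS
  choose! e q0 he hE hq using hm'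
  obtain ⟨f, hf⟩ : ∃ f, f = fold e q0 n oR - oL := ⟨_, rfl⟩
  have hFt : ∀ k > 0, ∃ h > 0, cone k h x ⊆ D ∧
      Tendsto (Fv n E q OL OR) (𝓝[cone k h x] (x : ℂ)) (𝓝 f) := by
    intro k hk
    obtain ⟨h, hh, hs, h3⟩ := hoL k hk
    obtain ⟨h', hh', hs', h4⟩ := hoR k hk
    rw [nhdsWithin_cone hk hh' hh] at h4
    refine ⟨h, hh, hs, ?_⟩
    rw [hf]
    exact (tendsto_fold he (fun i hi => (hE i hi).tendsto hk hh)
      (fun i hi => (hq i hi).tendsto hk hh) h4).sub h3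
  have hF1 : NT D (fun z => (Fv n E q OL OR z).1) x f.1 := fun k hk => by
    obtain ⟨h, hh, hs, h3⟩ := hFt k hk
    exact ⟨h, hh, hs, (continuous_fst.tendsto _).comp h3⟩
  have hF2 : NT D (fun z => (Fv n E q OL OR z).2) x f.2 := fun k hk => by
    obtain ⟨h, hh, hs, h3⟩ := hFt k hk
    exact ⟨h, hh, hs, (continuous_snd.tendsto _).comp h3⟩
  -- if one component vanishes on a cone, both do
  have hz : ∀ z ∈ D, ((Fv n E q OL OR z).1 = 0 ∨ (Fv n E q OL OR z).2 = 0) →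
      Fv n E q OL OR z = 0 := by
    intro z hz h3
    have hl0 := B.l0 z hz
    have h4 := hid z hz
    have h5 : (Fv n E q OL OR z).2 = 0 := by
      rcases h3 with h3 | h3
      · rw [h3] at h4
        rcases mul_eq_zero.mp h4.symm with h5 | h5
        · exact absurd (pow_eq_zero_iff two_ne_zero |>.1 h5) hl0
        · exact h5
      · exact h3
    rw [h5, mul_zero] at h4
    exact Prod.ext h4 h5
  have hf1 : f.1 ≠ 0 := by
    intro h0
    rw [h0] at hF1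
    obtain ⟨k, hk, h, hh, hs, h3⟩ := hx1 ⟨hxS, hF1⟩
    obtain ⟨z, hzc, hz0⟩ := hF x hxS k hk h hh hs
    exact hz0 (hz z (hs hzc) (Or.inl (h3 z hzc)))
  have hf2 : f.2 ≠ 0 := by
    intro h0
    rw [h0] at hF2
    obtain ⟨k, hk, h, hh, hs, h3⟩ := hx2 ⟨hxS, hF2⟩
    obtain ⟨z, hzc, hz0⟩ := hF x hxS k hk h hh hs
    exact hz0 (hz z (hs hzc) (Or.inr (h3 z hzc)))
  -- the direction of the line `0`
  have hroot : ∀ k > 0, ∃ r : ℂ, r ≠ 0 ∧ ∃ h > 0, cone k h x ⊆ D ∧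
      Tendsto (l 0) (𝓝[cone k h x] (x : ℂ)) (𝓝 r) := by
    intro k hk
    obtain ⟨h, hh, hs, _⟩ := hFt k hk
    have h3 := hF1.tendsto hk hh
    have h4 := hF2.tendsto hk hh
    have h5 : Tendsto (fun z => l 0 z ^ 2) (𝓝[cone k h x] (x : ℂ)) (𝓝 (f.1 / f.2)) := by
      refine (h3.div h4 hf2).congr' ?_
      filter_upwards [h4.eventually_ne hf2, self_mem_nhdsWithin] with z h6 h7
      rw [Pi.div_apply, hid z (hs h7), mul_div_assoc, div_self h6, mul_one]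
    obtain ⟨r, hr, h6⟩ := cone_root hk hh (B.hl.continuousOn.mono hs) (div_ne_zero hf1 hf2) h5
    exact ⟨r, hr, h, hh, hs, h6⟩
  have hl : ∃ r : ℂ, r ≠ 0 ∧ NT D (l 0) x r := by
    obtain ⟨r, hr, h, hh, hs, h3⟩ := hroot 1 one_pos
    refine ⟨r, hr, fun k hk => ?_⟩
    obtain ⟨r', hr', h', hh', hs', h4⟩ := hroot k hk
    obtain ⟨m, hm⟩ : ∃ m, m = min k 1 := ⟨_, rfl⟩
    have hm0 : 0 < m := by rw [hm]; exact lt_min hk one_pos
    have : Fact (0 < m) := ⟨hm0⟩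
    have : Fact (0 < min h h') := ⟨lt_min hh hh'⟩
    have e1 : Tendsto (l 0) (𝓝[cone m (min h h') x] (x : ℂ)) (𝓝 r) :=
      h3.mono_left (nhdsWithin_mono _ (cone_mono hm0 (by rw [hm]; exact min_le_right _ _)
        (min_le_left _ _)))
    have e2 : Tendsto (l 0) (𝓝[cone m (min h h') x] (x : ℂ)) (𝓝 r') :=
      h4.mono_left (nhdsWithin_mono _ (cone_mono hm0 (by rw [hm]; exact min_le_left _ _)
        (min_le_right _ _)))
    rw [tendsto_nhds_unique e1 e2]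
    exact ⟨h', hh', hs', h4⟩
  obtain ⟨l0, hl0, hl⟩ := hl
  -- the offset of the line `0`
  have hp : NT D (p 0) x ((oL.1 - l0 ^ 2 * oL.2) / (2 * I * l0)) := by
    intro k hk
    obtain ⟨h, hh, hs, h3⟩ := hoL k hk
    refine ⟨h, hh, hs, tendsto_p ?_ hl0 (hl.tendsto hk hh) h3⟩
    filter_upwards [self_mem_nhdsWithin] with z hz using B.oL z (hs hz)
  -- the other lines
  intro i
  induction i with
  | zero => exact fun _ => ⟨l0, _, hl0, hl, hp⟩
  | succ i ih =>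
    intro hi
    exact LineNT.refl (fun z hz => B.law z hz i (by omega)) (hm x hxS i (by omega)) (ih (by omega))

end Vale.Agent.P097.H834.Unf
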