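import Mathlib

/-!
# Unfolding of a billiard path in its mirrors (row UNF)

Null coordinates `(ζ, η) = (x + i y, x - i y)` of a complex point, a line is a pair `(l, p)` with
`l = exp (i α) ≠ 0` and its points are `ζ - l² η = 2 i p l`; a mirror is a line `(E, q)`.
-/

open Complex Filter Topology Set

namespace Vale.Agent.P097.H834.Unf

/-- incidence of the point `O = (ζ, η)` and of the line `(l, p)` -/
def OnL (l p : ℂ) (O : ℂ × ℂ) : Prop := O.1 - l ^ 2 * O.2 = 2 * I * p * l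

/-- reflection of a point in the mirror `(E, q)` -/
noncomputable def refl (E q : ℂ) (O : ℂ × ℂ) : ℂ × ℂ :=
  (E ^ 2 * O.2 + 2 * I * q * E, (O.1 - 2 * I * q * E) / E ^ 2)

theorem refl_refl {E q : ℂ} (hE : E ≠ 0) (O : ℂ × ℂ) : refl E q (refl E q O) = O := by
  ext
  · simp only [refl]
    field_simp
    ring
  · simp only [refl]
    field_simp
    ring

/-- the reflection law for lines -/
structure Law (E q l p l' p' : ℂ) : Prop where
  E0 : E ≠ 0
  l0 : l ≠ 0
  ll : l' * l = E ^ 2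
  pp : p' + p = q * (l / E + E / l)

theorem Law.l'0 {E q l p l' p' : ℂ} (h : Law E q l p l' p') : l' ≠ 0 := by
  intro h0
  have := h.ll
  rw [h0, zero_mul] at this
  exact h.E0 (pow_eq_zero_iff two_ne_zero |>.1 this.symm)

theorem Law.symm {E q l p l' p' : ℂ} (h : Law E q l p l' p') : Law E q l' p' l p := by
  have h1 := h.l'0
  refine ⟨h.E0, h1, by rw [mul_comm]; exact h.ll, ?_⟩
  rw [add_comm, h.pp]
  have e1 : l' / E = E / l := by
    have := h.ll; have := h.E0; have := h.l0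
    field_simp
    linear_combination h.ll
  have e2 : E / l' = l / E := by
    have := h.E0
    field_simp
    linear_combination -h.ll
  rw [e1, e2]
  ring

theorem Law.eq_l {E q l p l' p' : ℂ} (h : Law E q l p l' p') : l' = E ^ 2 / l := by
  rw [eq_div_iff h.l0, h.ll]

theorem Law.eq_p {E q l p l' p' : ℂ} (h : Law E q l p l' p') :
    p' = q * (l / E + E / l) - p := by
  rw [← h.pp]; ring

/-- the reflection maps the incoming line to the outgoing line -/
theorem Law.onL {E q l p l' p' : ℂ} (h : Law E q l p l' p') {O : ℂ × ℂ} (hO : OnL l p O) :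
    OnL l' p' (refl E q O) := by
  have hE := h.E0
  have hl := h.l0
  rw [h.eq_l, h.eq_p]
  simp only [OnL, refl] at hO ⊢
  have h1 : O.1 = l ^ 2 * O.2 + 2 * I * p * l := by rw [← hO]; ring
  rw [h1]
  field_simp
  ring

/-- the composition `s_0 s_1 ⋯ s_{n-1}` of the reflections in the mirrors `(E i, q i)` -/
noncomputable def fold (E q : ℕ → ℂ) : ℕ → ℂ × ℂ → ℂ × ℂ
  | 0, O => O
  | n + 1, O => fold E q n (refl (E n) (q n) O)

theorem fold_succ (E q : ℕ → ℂ) (n : ℕ) (O : ℂ × ℂ) :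
    fold E q (n + 1) O = fold E q n (refl (E n) (q n) O) := rfl

/-- **unfolding**: a point of the last line goes to a point of the first line -/
theorem fold_onL {E q l p : ℕ → ℂ} {n : ℕ}
    (h : ∀ i < n, Law (E i) (q i) (l i) (p i) (l (i + 1)) (p (i + 1))) {O : ℂ × ℂ}
    (hO : OnL (l n) (p n) O) : OnL (l 0) (p 0) (fold E q n O) := by
  induction n generalizing O with
  | zero => exact hO
  | succ n ih =>
    rw [fold_succ]
    exact ih (fun i hi => h i (by omega)) ((h n (Nat.lt_succ_self n)).symm.onL hO)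

/-- two points of the same line: the null components of the difference -/
theorem OnL.sub {l p : ℂ} {O O' : ℂ × ℂ} (h : OnL l p O) (h' : OnL l p O') :
    O.1 - O'.1 = l ^ 2 * (O.2 - O'.2) := by
  simp only [OnL] at h h'
  linear_combination h - h'

/-- **(U1)** `F = fold O_R - O_L` satisfies `F₊ = l₀² F₋` -/
theorem fold_sub {E q l p : ℕ → ℂ} {n : ℕ}
    (h : ∀ i < n, Law (E i) (q i) (l i) (p i) (l (i + 1)) (p (i + 1))) {OL OR : ℂ × ℂ}
    (hL : OnL (l 0) (p 0) OL) (hR : OnL (l n) (p n) OR) :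
    (fold E q n OR).1 - OL.1 = l 0 ^ 2 * ((fold E q n OR).2 - OL.2) :=
  (fold_onL h hR).sub hL

/-- the intersection of the line `(l, p)` with the mirror `(E, q)` -/
noncomputable def hit (E q l p : ℂ) : ℂ × ℂ :=
  (E ^ 2 * (2 * I * (q * E - p * l) / (l ^ 2 - E ^ 2)) + 2 * I * q * E,
    2 * I * (q * E - p * l) / (l ^ 2 - E ^ 2))

theorem hit_unique {E q l p : ℂ} (hd : l ^ 2 - E ^ 2 ≠ 0) {O : ℂ × ℂ} (h1 : OnL l p O)
    (h2 : OnL E q O) : O = hit E q l p := by
  simp only [OnL] at h1 h2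
  have e : O.2 = 2 * I * (q * E - p * l) / (l ^ 2 - E ^ 2) := by
    rw [eq_div_iff hd]
    linear_combination h2 - h1
  ext
  · simp only [hit]
    rw [← e]
    linear_combination h2
  · simp only [hit]
    rw [← e]

/-! ### limits along a filter -/

variable {X : Type*} {F : Filter X}

theorem tendsto_refl {E q : X → ℂ} {O : X → ℂ × ℂ} {e q' : ℂ} {o : ℂ × ℂ} (he : e ≠ 0)
    (hE : Tendsto E F (𝓝 e)) (hq : Tendsto q F (𝓝 q')) (hO : Tendsto O F (𝓝 o)) :
    Tendsto (fun x => refl (E x) (q x) (O x)) F (𝓝 (refl e q' o)) := by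
  have h1 : Tendsto (fun x => (O x).1) F (𝓝 o.1) := (continuous_fst.tendsto _).comp hO
  have h2 : Tendsto (fun x => (O x).2) F (𝓝 o.2) := (continuous_snd.tendsto _).comp hO
  have h3 : Tendsto (fun x => 2 * I * q x * E x) F (𝓝 (2 * I * q' * e)) :=
    (hq.const_mul _).mul hE
  refine Tendsto.prodMk_nhds (((hE.pow 2).mul h2).add h3) ?_
  exact (h1.sub h3).div (hE.pow 2) (pow_ne_zero 2 he)

theorem tendsto_fold {n : ℕ} {E q : ℕ → X → ℂ} {e q' : ℕ → ℂ} (he : ∀ i < n, e i ≠ 0)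
    (hE : ∀ i < n, Tendsto (E i) F (𝓝 (e i))) (hq : ∀ i < n, Tendsto (q i) F (𝓝 (q' i)))
    {O : X → ℂ × ℂ} {o : ℂ × ℂ} (hO : Tendsto O F (𝓝 o)) :
    Tendsto (fun x => fold (fun i => E i x) (fun i => q i x) n (O x)) F (𝓝 (fold e q' n o)) := by
  induction n generalizing O o with
  | zero => exact hO
  | succ n ih =>
    simp only [fold_succ]
    exact ih (fun i hi => he i (by omega)) (fun i hi => hE i (by omega))
      (fun i hi => hq i (by omega))
      (tendsto_refl (he n (by omega)) (hE n (by omega)) (hq n (by omega)) hO)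

/-- **(U2), squares**: if the mirrors and the ends converge, and `F₋ ↛ 0`, then `l₀²` converges -/
theorem tendsto_sq {n : ℕ} {E q : ℕ → X → ℂ} {l p : ℕ → X → ℂ} {OL OR : X → ℂ × ℂ}
    (h : ∀ᶠ x in F, ∀ i < n, Law (E i x) (q i x) (l i x) (p i x) (l (i + 1) x) (p (i + 1) x))
    (hL : ∀ᶠ x in F, OnL (l 0 x) (p 0 x) (OL x)) (hR : ∀ᶠ x in F, OnL (l n x) (p n x) (OR x))
    {f1 f2 : ℂ} (h2 : f2 ≠ 0)
    (hf1 : Tendsto (fun x => (fold (fun i => E i x) (fun i => q i x) n (OR x)).1 - (OL x).1) F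
      (𝓝 f1))
    (hf2 : Tendsto (fun x => (fold (fun i => E i x) (fun i => q i x) n (OR x)).2 - (OL x).2) F
      (𝓝 f2)) :
    Tendsto (fun x => l 0 x ^ 2) F (𝓝 (f1 / f2)) := by
  refine (hf1.div hf2 h2).congr' ?_
  filter_upwards [hf2.eventually_ne h2, h, hL, hR] with x hx h hL hR
  rw [Pi.div_apply]
  rw [fold_sub h hL hR, mul_div_assoc, div_self hx, mul_one]

/-- convergence of the lines, step by step -/
theorem tendsto_lines {n : ℕ} {E q : ℕ → X → ℂ} {l p : ℕ → X → ℂ}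
    (h : ∀ᶠ x in F, ∀ i < n, Law (E i x) (q i x) (l i x) (p i x) (l (i + 1) x) (p (i + 1) x))
    {e q' : ℕ → ℂ} (he : ∀ i < n, e i ≠ 0)
    (hE : ∀ i < n, Tendsto (E i) F (𝓝 (e i))) (hq : ∀ i < n, Tendsto (q i) F (𝓝 (q' i)))
    {l0 p0 : ℂ} (hl0 : l0 ≠ 0) (hl : Tendsto (l 0) F (𝓝 l0)) (hp : Tendsto (p 0) F (𝓝 p0)) :
    ∀ i ≤ n, ∃ li pi : ℂ, li ≠ 0 ∧ Tendsto (l i) F (𝓝 li) ∧ Tendsto (p i) F (𝓝 pi) := by
  intro i
  induction i with
  | zero => exact fun _ => ⟨l0, p0, hl0, hl, hp⟩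
  | succ i ih =>
    intro hi
    obtain ⟨li, pi, h0, h1, h2⟩ := ih (by omega)
    have hi' : i < n := by omega
    refine ⟨e i ^ 2 / li, q' i * (li / e i + e i / li) - pi,
      div_ne_zero (pow_ne_zero 2 (he i hi')) h0, ?_, ?_⟩
    · exact ((((hE i hi').pow 2).div h1 h0)).congr' (h.mono fun x hx => ((hx i hi').eq_l).symm)
    · exact (((hq i hi').mul ((h1.div (hE i hi') (he i hi')).add
        ((hE i hi').div h1 h0))).sub h2).congr' (h.mono fun x hx => ((hx i hi').eq_p).symm)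

/-- the offset of a line through a convergent point -/
theorem tendsto_p {l p : X → ℂ} {O : X → ℂ × ℂ} (hO : ∀ᶠ x in F, OnL (l x) (p x) (O x))
    {l0 : ℂ} {o : ℂ × ℂ} (hl0 : l0 ≠ 0) (h1 : Tendsto l F (𝓝 l0))
    (h2 : Tendsto O F (𝓝 o)) :
    Tendsto p F (𝓝 ((o.1 - l0 ^ 2 * o.2) / (2 * I * l0))) := by
  have h3 : Tendsto (fun x => (O x).1) F (𝓝 o.1) := (continuous_fst.tendsto _).comp h2
  have h4 : Tendsto (fun x => (O x).2) F (𝓝 o.2) := (continuous_snd.tendsto _).comp h2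
  have hI : (2 * I : ℂ) ≠ 0 := mul_ne_zero two_ne_zero I_ne_zero
  refine ((h3.sub ((h1.pow 2).mul h4)).div (h1.const_mul (2 * I)) (mul_ne_zero hI hl0)).congr' ?_
  filter_upwards [hO, h1.eventually_ne hl0] with x h5 h6
  simp only [OnL] at h5
  rw [Pi.div_apply, h5]
  field_simp

/-- the impact point converges if the limit line is not the mirror -/
theorem tendsto_hit {E q l p : X → ℂ} {e q' l0 p0 : ℂ} (hd : l0 ^ 2 - e ^ 2 ≠ 0)
    (hE : Tendsto E F (𝓝 e)) (hq : Tendsto q F (𝓝 q')) (hl : Tendsto l F (𝓝 l0))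
    (hp : Tendsto p F (𝓝 p0)) :
    Tendsto (fun x => hit (E x) (q x) (l x) (p x)) F (𝓝 (hit e q' l0 p0)) := by
  have h1 : Tendsto (fun x => 2 * I * (q x * E x - p x * l x) / (l x ^ 2 - E x ^ 2)) F
      (𝓝 (2 * I * (q' * e - p0 * l0) / (l0 ^ 2 - e ^ 2))) :=
    (((hq.mul hE).sub (hp.mul hl)).const_mul _).div ((hl.pow 2).sub (hE.pow 2)) hd
  exact Tendsto.prodMk_nhds ((((hE.pow 2).mul h1)).add ((hq.const_mul _).mul hE)) h1

end Vale.Agent.P097.H834.Unf
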