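import Vale.Agent.P097.H834.Unf.Alg
import Vale.Agent.P097.H877.Bd.Priv

/-!
# Square roots on connected sets (row UNF): from `l²` to `l`
-/

open Complex Filter Topology Set

namespace Vale.Agent.P097.H834.Unf

/-- the half plane `Re (w / r) > 0` carries the branch of the square root near `r` -/
theorem norm_sub_le_of_re {w : ℂ} (hw : 0 ≤ w.re) : ‖w - 1‖ ≤ ‖w ^ 2 - 1‖ := by
  have h1 : w ^ 2 - 1 = (w - 1) * (w + 1) := by ring
  rw [h1, norm_mul]
  have h2 : 1 ≤ ‖w + 1‖ := by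
    calc (1 : ℝ) ≤ (w + 1).re := by simp [hw]
      _ ≤ ‖w + 1‖ := re_le_norm _
  nlinarith [norm_nonneg (w - 1)]

theorem re_ne_zero_of_sq {w : ℂ} (h : ‖w ^ 2 - 1‖ < 1) : w.re ≠ 0 := by
  intro h0
  have h1 : w ^ 2 = ((-(w.im ^ 2) : ℝ) : ℂ) := by
    apply Complex.ext
    · simp only [sq, mul_re, h0, ofReal_re]; ring
    · simp only [sq, mul_im, h0, ofReal_im]; ring
  have h2 : (w ^ 2 - 1).re = -(w.im ^ 2) - 1 := by rw [h1, sub_re, ofReal_re, one_re]
  have h3 := abs_re_le_norm (w ^ 2 - 1)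
  rw [h2] at h3
  have h4 : 1 ≤ |(-(w.im ^ 2) - 1 : ℝ)| := by
    rw [abs_of_nonpos (by nlinarith [sq_nonneg w.im])]
    nlinarith [sq_nonneg w.im]
  linarith

/-- on a preconnected set the sign of the real part is constant -/
theorem re_sign {X : Type*} [TopologicalSpace X] {K : Set X} (hK : IsPreconnected K) {f : X → ℂ}
    (hf : ContinuousOn f K) (h : ∀ x ∈ K, (f x).re ≠ 0) {z : X} (hz : z ∈ K)
    (h0 : 0 < (f z).re) : ∀ x ∈ K, 0 < (f x).re := by
  intro x hx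
  by_contra hcon
  have h1 : (f x).re < 0 := lt_of_le_of_ne (not_lt.mp hcon) (h x hx)
  have h2 : ContinuousOn (fun x => (f x).re) K := continuous_re.comp_continuousOn hf
  obtain ⟨y, hy, hy0⟩ := hK.intermediate_value hx hz h2 ⟨h1.le, h0.le⟩
  exact h y hy hy0

/-- **(U4), one compact piece**: `f² → r²` uniformly on a preconnected set, and `f z → r` at one
point: then `f → r` uniformly -/
theorem unif_root {X ι : Type*} [TopologicalSpace X] {F : Filter ι} {K : Set X}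
    (hK : IsPreconnected K) {f : ι → X → ℂ} (hf : ∀ᶠ i in F, ContinuousOn (f i) K) {r : ℂ}
    (hr : r ≠ 0) (h2 : TendstoUniformlyOn (fun i x => f i x ^ 2) (fun _ => r ^ 2) F K) {z : X}
    (hz : z ∈ K) (h0 : Tendsto (fun i => f i z) F (𝓝 r)) :
    TendstoUniformlyOn f (fun _ => r) F K := by
  have hr0 : 0 < ‖r‖ := norm_pos_iff.mpr hr
  rw [Metric.tendstoUniformlyOn_iff] at h2 ⊢
  intro ε hε
  have h3 : ∀ᶠ i in F, 0 < (f i z / r).re := by
    have h4 : Tendsto (fun i => (f i z / r).re) F (𝓝 (r / r).re) :=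
      (continuous_re.tendsto _).comp (h0.div_const r)
    rw [div_self hr, one_re] at h4
    exact h4.eventually_const_lt one_pos
  filter_upwards [hf, h2 (min (‖r‖ ^ 2) (ε * ‖r‖)) (lt_min (by positivity) (by positivity)), h3]
    with i hi h4 h5 x hx
  have h6 : ∀ x ∈ K, ‖(f i x / r) ^ 2 - 1‖ < min 1 (ε / ‖r‖) := by
    intro x hx
    have h7 := h4 x hx
    rw [dist_comm, dist_eq_norm] at h7
    have h8 : (f i x / r) ^ 2 - 1 = (f i x ^ 2 - r ^ 2) / r ^ 2 := by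
      field_simp
    rw [h8, norm_div, norm_pow, div_lt_iff₀ (by positivity)]
    refine h7.trans_le (le_of_eq ?_)
    rw [min_mul_of_nonneg _ _ (by positivity), one_mul]
    congr 1
    field_simp
  have h7 : 0 < (f i x / r).re := re_sign hK (hi.div_const r)
    (fun x hx => re_ne_zero_of_sq ((h6 x hx).trans_le (min_le_left _ _))) hz h5 x hx
  have h8 := (norm_sub_le_of_re h7.le).trans_lt ((h6 x hx).trans_le (min_le_right _ _))
  have h9 : r - f i x = -(r * (f i x / r - 1)) := by field_simp; ring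
  rw [dist_eq_norm, h9, norm_neg, norm_mul]
  rw [lt_div_iff₀ hr0] at h8
  linarith

/-- **(U4)** locally uniform version on an open connected set -/
theorem locUnif_root {X ι : Type*} [TopologicalSpace X] [LocallyConnectedSpace X] {F : Filter ι}
    {Q : Set X} (hQo : IsOpen Q) (hQ : IsPreconnected Q) {f : ι → X → ℂ}
    (hf : ∀ᶠ i in F, ContinuousOn (f i) Q) {r : ℂ} (hr : r ≠ 0)
    (h2 : TendstoLocallyUniformlyOn (fun i x => f i x ^ 2) (fun _ => r ^ 2) F Q) {z : X}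
    (hz : z ∈ Q) (h0 : Tendsto (fun i => f i z) F (𝓝 r)) :
    TendstoLocallyUniformlyOn f (fun _ => r) F Q := by
  have hr0 : 0 < ‖r‖ := norm_pos_iff.mpr hr
  rw [Metric.tendstoLocallyUniformlyOn_iff] at h2
  have hkey : ∀ i x, (f i x / r) ^ 2 - 1 = (f i x ^ 2 - r ^ 2) / r ^ 2 := fun i x => by
    field_simp
  -- a connected neighbourhood on which the squares are close
  have hloc : ∀ x ∈ Q, ∃ V : Set X, IsOpen V ∧ IsPreconnected V ∧ x ∈ V ∧ V ⊆ Q ∧
      ∀ᶠ i in F, ∀ y ∈ V, ‖(f i y / r) ^ 2 - 1‖ < 1 := by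
    intro x hx
    obtain ⟨t, ht, h3⟩ := h2 (‖r‖ ^ 2) (by positivity) x hx
    rw [hQo.nhdsWithin_eq hx] at ht
    obtain ⟨V, hVt, hVo, hxV, hVc⟩ := locallyConnectedSpace_iff_subsets_isOpen_isConnected.mp
      inferInstance x (t ∩ Q) (Filter.inter_mem ht (hQo.mem_nhds hx))
    refine ⟨V, hVo, hVc.isPreconnected, hxV, hVt.trans inter_subset_right, ?_⟩
    filter_upwards [h3] with i hi y hy
    have h4 := hi y (hVt hy).1
    rw [dist_comm, dist_eq_norm] at h4
    rw [hkey, norm_div, norm_pow, div_lt_one (by positivity)]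
    exact h4
  -- the sign
  have hprop : ∀ x ∈ Q, ∀ V : Set X, IsPreconnected V → V ⊆ Q →
      (∀ᶠ i in F, ∀ y ∈ V, ‖(f i y / r) ^ 2 - 1‖ < 1) → ∀ y ∈ V,
      (∀ᶠ i in F, 0 < (f i y / r).re) → ∀ᶠ i in F, ∀ w ∈ V, 0 < (f i w / r).re := by
    intro x _ V hVc hVQ h3 y hy h4
    filter_upwards [hf, h3, h4] with i hi h3 h4 w hw
    exact re_sign hVc ((hi.mono hVQ).div_const r) (fun x hx => re_ne_zero_of_sq (h3 x hx)) hy h4 w hw
  obtain ⟨A, hA⟩ : ∃ A : Set X, A = {x | x ∈ Q ∧ ∀ᶠ i in F, 0 < (f i x / r).re} := ⟨_, rfl⟩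
  have hQA : Q ⊆ A := by
    refine hQ.subset_of_closure_inter_subset ?_ ⟨z, hz, ?_⟩ ?_
    · rw [isOpen_iff_mem_nhds]
      intro x hx
      rw [hA] at hx
      obtain ⟨V, hVo, hVc, hxV, hVQ, h3⟩ := hloc x hx.1
      filter_upwards [hVo.mem_nhds hxV] with w hw
      rw [hA]
      exact ⟨hVQ hw, (hprop x hx.1 V hVc hVQ h3 x hxV hx.2).mono fun i hi => hi w hw⟩
    · rw [hA]
      refine ⟨hz, ?_⟩
      have h4 : Tendsto (fun i => (f i z / r).re) F (𝓝 (r / r).re) :=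
        (continuous_re.tendsto _).comp (h0.div_const r)
      rw [div_self hr, one_re] at h4
      exact h4.eventually_const_lt one_pos
    · rintro x ⟨hx1, hx2⟩
      obtain ⟨V, hVo, hVc, hxV, hVQ, h3⟩ := hloc x hx2
      obtain ⟨y, hyV, hyA⟩ := mem_closure_iff.mp hx1 V hVo hxV
      rw [hA] at hyA ⊢
      exact ⟨hx2, (hprop x hx2 V hVc hVQ h3 y hyV hyA.2).mono fun i hi => hi x hxV⟩
  rw [Metric.tendstoLocallyUniformlyOn_iff]
  intro ε hε x hx
  obtain ⟨V, hVo, hVc, hxV, hVQ, h3⟩ := hloc x hx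
  have hxA := hQA hx
  rw [hA] at hxA
  have h4 := hprop x hx V hVc hVQ h3 x hxV hxA.2
  obtain ⟨t, ht, h5⟩ := h2 (ε * ‖r‖) (by positivity) x hx
  refine ⟨t ∩ V, Filter.inter_mem ht (mem_nhdsWithin_of_mem_nhds (hVo.mem_nhds hxV)), ?_⟩
  filter_upwards [h4, h5] with i h4 h5 y hy
  have h6 := h5 y hy.1
  have h7 := norm_sub_le_of_re (h4 y hy.2).le
  rw [dist_comm, dist_eq_norm] at h6
  rw [hkey, norm_div, norm_pow, le_div_iff₀ (by positivity)] at h7
  have h9 : r - f i y = -(r * (f i y / r - 1)) := by field_simp; ring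
  rw [dist_eq_norm, h9, norm_neg, norm_mul]
  have h10 : ‖r‖ * (‖r‖ * ‖f i y / r - 1‖) < ‖r‖ * ε := by nlinarith
  exact lt_of_mul_lt_mul_left h10 hr0.le

end Vale.Agent.P097.H834.Unf
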