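import Vale.Agent.P097.H834.Unf.Root

/-!
# Unfolding, wide wedge form (row UNF, (U4)): locally uniform limits on a connected open set

`X` is any locally connected space (for instance `ℂ × ℂ`), `F` any filter of parameters `ε`.
`LU F Q f c` : `f ε → c` locally uniformly on `Q`, `c` a constant.
-/

open Complex Filter Topology Set

namespace Vale.Agent.P097.H834.Unf

/-- the square of the direction of the first line, along any filter -/
theorem tendsto_l2 {Z : Type*} {G : Filter Z} {n : ℕ} {E q l p : ℕ → Z → ℂ} {OL OR : Z → ℂ × ℂ}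
    (h : ∀ᶠ x in G, ∀ i < n, Law (E i x) (q i x) (l i x) (p i x) (l (i + 1) x) (p (i + 1) x))
    (hL : ∀ᶠ x in G, OnL (l 0 x) (p 0 x) (OL x)) (hR : ∀ᶠ x in G, OnL (l n x) (p n x) (OR x))
    {e q' : ℕ → ℂ} (he : ∀ i < n, e i ≠ 0)
    (hE : ∀ i < n, Tendsto (E i) G (𝓝 (e i))) (hq : ∀ i < n, Tendsto (q i) G (𝓝 (q' i)))
    {oL oR : ℂ × ℂ} (hoL : Tendsto OL G (𝓝 oL)) (hoR : Tendsto OR G (𝓝 oR))
    (hf : (fold e q' n oR).2 - oL.2 ≠ 0) :
    Tendsto (fun x => l 0 x ^ 2) G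
      (𝓝 (((fold e q' n oR).1 - oL.1) / ((fold e q' n oR).2 - oL.2))) := by
  have hO := tendsto_fold he hE hq hoR
  have hO1 : Tendsto (fun x => (fold (fun i => E i x) (fun i => q i x) n (OR x)).1) G
    (𝓝 (fold e q' n oR).1) := (continuous_fst.tendsto _).comp hO
  have hO2 : Tendsto (fun x => (fold (fun i => E i x) (fun i => q i x) n (OR x)).2) G
    (𝓝 (fold e q' n oR).2) := (continuous_snd.tendsto _).comp hO
  have hL1 : Tendsto (fun x => (OL x).1) G (𝓝 oL.1) := (continuous_fst.tendsto _).comp hoL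
  have hL2 : Tendsto (fun x => (OL x).2) G (𝓝 oL.2) := (continuous_snd.tendsto _).comp hoL
  exact tendsto_sq h hL hR hf (hO1.sub hL1) (hO2.sub hL2)

variable {X ι : Type*} [TopologicalSpace X]

/-- locally uniform convergence to a constant -/
def LU {Y : Type*} [TopologicalSpace Y] (F : Filter ι) (Q : Set X) (f : ι → X → Y) (c : Y) :
    Prop := ∀ x ∈ Q, Tendsto (fun y : ι × X => f y.1 y.2) (F ×ˢ 𝓝[Q] x) (𝓝 c)

theorem lu_iff {Y : Type*} [UniformSpace Y] {F : Filter ι} {Q : Set X} {f : ι → X → Y} {c : Y} :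
    LU F Q f c ↔ TendstoLocallyUniformlyOn f (fun _ => c) F Q := by
  rw [tendstoLocallyUniformlyOn_iff_forall_tendsto]
  refine forall₂_congr fun x _ => ?_
  rw [Uniform.tendsto_nhds_right]

variable {F : Filter ι} {Q : Set X}

theorem LU.at {Y : Type*} [TopologicalSpace Y] {F : Filter ι} {Q : Set X} {f : ι → X → Y} {c : Y}
    (h : LU F Q f c) {x : X} (hx : x ∈ Q) : Tendsto (fun i => f i x) F (𝓝 c) := by
  have h1 : Tendsto (fun i : ι => (i, x)) F (F ×ˢ 𝓝[Q] x) :=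
    tendsto_id.prodMk (tendsto_const_pure.mono_right (pure_le_nhdsWithin hx))
  exact (h x hx).comp h1

/-- (U4): the root -/
theorem lu_root [LocallyConnectedSpace X] (hQo : IsOpen Q) (hQ : IsPreconnected Q)
    {f : ι → X → ℂ} (hf : ∀ᶠ i in F, ContinuousOn (f i) Q) {r : ℂ} (hr : r ≠ 0)
    (h2 : LU F Q (fun i x => f i x ^ 2) (r ^ 2)) {z : X} (hz : z ∈ Q)
    (h0 : Tendsto (fun i => f i z) F (𝓝 r)) : LU F Q f r :=
  lu_iff.mpr (locUnif_root hQo hQ hf hr (lu_iff.mp h2) hz h0)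

/-- the law along the product filter -/
theorem ev_prod {p : ι → X → Prop} (h : ∀ᶠ i in F, ∀ x ∈ Q, p i x) {x : X} :
    ∀ᶠ y : ι × X in F ×ˢ 𝓝[Q] x, p y.1 y.2 := by
  filter_upwards [h.prod_mk (self_mem_nhdsWithin : ∀ᶠ z in 𝓝[Q] x, z ∈ Q)] with y hy
  exact hy.1 _ hy.2

/-- the lines on the wide wedge, from one line -/
theorem lu_lines {n : ℕ} {E q l p : ℕ → ι → X → ℂ}
    (h : ∀ᶠ i in F, ∀ x ∈ Q, ∀ j < n,
      Law (E j i x) (q j i x) (l j i x) (p j i x) (l (j + 1) i x) (p (j + 1) i x))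
    {e q' : ℕ → ℂ} (he : ∀ j < n, e j ≠ 0) (hE : ∀ j < n, LU F Q (E j) (e j))
    (hq : ∀ j < n, LU F Q (q j) (q' j)) {l0 p0 : ℂ} (hl0 : l0 ≠ 0) (hl : LU F Q (l 0) l0)
    (hp : LU F Q (p 0) p0) :
    ∀ j ≤ n, ∃ lj pj : ℂ, lj ≠ 0 ∧ LU F Q (l j) lj ∧ LU F Q (p j) pj := by
  intro j
  induction j with
  | zero => exact fun _ => ⟨l0, p0, hl0, hl, hp⟩
  | succ j ih =>
    intro hj
    obtain ⟨lj, pj, h0, h1, h2⟩ := ih (by omega)
    have hj' : j < n := by omega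
    have hev : ∀ x : X, ∀ᶠ y : ι × X in F ×ˢ 𝓝[Q] x,
        Law (E j y.1 y.2) (q j y.1 y.2) (l j y.1 y.2) (p j y.1 y.2) (l (j + 1) y.1 y.2)
          (p (j + 1) y.1 y.2) := fun x =>
      ev_prod (h.mono fun i hi x hx => hi x hx j hj')
    refine ⟨e j ^ 2 / lj, q' j * (lj / e j + e j / lj) - pj,
      div_ne_zero (pow_ne_zero 2 (he j hj')) h0, fun x hx => ?_, fun x hx => ?_⟩
    · exact ((((hE j hj' x hx).pow 2).div (h1 x hx) h0)).congr'
        ((hev x).mono fun y hy => (hy.eq_l).symm)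
    · exact (((hq j hj' x hx).mul (((h1 x hx).div (hE j hj' x hx) (he j hj')).add
        ((hE j hj' x hx).div (h1 x hx) h0))).sub (h2 x hx)).congr'
        ((hev x).mono fun y hy => (hy.eq_p).symm)

/-- **(U4)** the mirrors and the ends converge to constants locally uniformly on the connected
open set `Q`, `F` has non zero limits, and the line `0` converges at one point of `Q` (the narrow
cone): then all the lines of the block converge locally uniformly on `Q` -/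
theorem lu_unfold [LocallyConnectedSpace X] (hQo : IsOpen Q) (hQ : IsPreconnected Q) {n : ℕ}
    {E q l p : ℕ → ι → X → ℂ} {OL OR : ι → X → ℂ × ℂ}
    (h : ∀ᶠ i in F, ∀ x ∈ Q, ∀ j < n,
      Law (E j i x) (q j i x) (l j i x) (p j i x) (l (j + 1) i x) (p (j + 1) i x))
    (hc : ∀ᶠ i in F, ContinuousOn (l 0 i) Q)
    (hL : ∀ᶠ i in F, ∀ x ∈ Q, OnL (l 0 i x) (p 0 i x) (OL i x))
    (hR : ∀ᶠ i in F, ∀ x ∈ Q, OnL (l n i x) (p n i x) (OR i x))
    {e q' : ℕ → ℂ} (he : ∀ j < n, e j ≠ 0) (hE : ∀ j < n, LU F Q (E j) (e j))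
    (hq : ∀ j < n, LU F Q (q j) (q' j)) {oL oR : ℂ × ℂ} (hoL : LU F Q OL oL)
    (hoR : LU F Q OR oR) (hf : (fold e q' n oR).2 - oL.2 ≠ 0) {z : X} (hz : z ∈ Q) {r : ℂ}
    (hr : r ≠ 0) (h0 : Tendsto (fun i => l 0 i z) F (𝓝 r))
    [F.NeBot] :
    ∀ j ≤ n, ∃ lj pj : ℂ, lj ≠ 0 ∧ LU F Q (l j) lj ∧ LU F Q (p j) pj := by
  have hsq : LU F Q (fun i x => l 0 i x ^ 2)
      (((fold e q' n oR).1 - oL.1) / ((fold e q' n oR).2 - oL.2)) := by
    intro x hx
    have h1 : ∀ᶠ y : ι × X in F ×ˢ 𝓝[Q] x, ∀ j < n, Law (E j y.1 y.2) (q j y.1 y.2)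
        (l j y.1 y.2) (p j y.1 y.2) (l (j + 1) y.1 y.2) (p (j + 1) y.1 y.2) :=
      ev_prod (p := fun i x => ∀ j < n,
        Law (E j i x) (q j i x) (l j i x) (p j i x) (l (j + 1) i x) (p (j + 1) i x)) h
    have h2 : ∀ᶠ y : ι × X in F ×ˢ 𝓝[Q] x, OnL (l 0 y.1 y.2) (p 0 y.1 y.2) (OL y.1 y.2) :=
      ev_prod (p := fun i x => OnL (l 0 i x) (p 0 i x) (OL i x)) hL
    have h3 : ∀ᶠ y : ι × X in F ×ˢ 𝓝[Q] x, OnL (l n y.1 y.2) (p n y.1 y.2) (OR y.1 y.2) :=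
      ev_prod (p := fun i x => OnL (l n i x) (p n i x) (OR i x)) hR
    exact @tendsto_l2 (ι × X) (F ×ˢ 𝓝[Q] x) n (fun j y => E j y.1 y.2) (fun j y => q j y.1 y.2)
      (fun j y => l j y.1 y.2) (fun j y => p j y.1 y.2) (fun y => OL y.1 y.2)
      (fun y => OR y.1 y.2) h1 h2 h3 e q' he (fun j hj => hE j hj x hx)
      (fun j hj => hq j hj x hx) oL oR (hoL x hx) (hoR x hx) hf
  have hr2 : ((fold e q' n oR).1 - oL.1) / ((fold e q' n oR).2 - oL.2) = r ^ 2 := by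
    exact tendsto_nhds_unique (hsq.at hz) (h0.pow 2)
  rw [hr2] at hsq
  have hl : LU F Q (l 0) r := lu_root hQo hQ hc hr hsq hz h0
  have hp : LU F Q (p 0) ((oL.1 - r ^ 2 * oL.2) / (2 * I * r)) := fun x hx =>
    @tendsto_p (ι × X) (F ×ˢ 𝓝[Q] x) (fun y => l 0 y.1 y.2) (fun y => p 0 y.1 y.2)
      (fun y => OL y.1 y.2) (ev_prod (p := fun i x => OnL (l 0 i x) (p 0 i x) (OL i x)) hL) r oL hr
      (hl x hx) (hoL x hx)
  exact lu_lines h he hE hq hr hl hp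

end Vale.Agent.P097.H834.Unf
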